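import Vale.Agent.Lib.P007.Compositum

namespace Vale.Agent.Results.P007.Disproof

open Vale.Agent.Lib.P007 NumberField Filter MeasureTheory Topology

/-- Every composite degree `n`.
(A) Maximal orders: totally real fields `K_i` of degree `n` with `|Disc K_i|` tending to
infinity and one nonnegative `f` in `C_c(X_n)`, equal to one at the point of the lattice
`Z^n`, such that for any orderings `sigma_i` the packet measures `mu_i` of the maximal orders
`O_{K_i}` are probability measures against which `f` has integral zero, while the integral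
of `f` against every invariant probability measure `m` is positive; so the integrals against
the `mu_i` do not converge to the integral against `m`.
(B) Orders of one field: the same for orders `O_i`, with `|Disc O_i|` tending to infinity,
of one totally real field `K` of degree `n`. -/
theorem result (n : ℕ) (hn : ∃ a b : ℕ, 1 < a ∧ 1 < b ∧ n = a * b) :
    (∃ (K : ℕ → Type) (_ : ∀ i, Field (K i)) (_ : ∀ i, NumberField (K i))
      (_ : ∀ i, IsTotallyReal (K i)),
      (∀ i, Module.finrank ℚ (K i) = n) ∧ (∀ i, Nonempty (Fin n ≃ (K i →+* ℝ))) ∧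
      Tendsto (fun i => (discr (K i)).natAbs) atTop atTop ∧
      ∃ f : XSpace n → ℝ, Continuous f ∧ HasCompactSupport f ∧ (∀ x, 0 ≤ f x) ∧
        f (XSpace.mk 1) = 1 ∧
        ∀ σ : ∀ i, Fin n ≃ (K i →+* ℝ),
          (∀ i, IsProbabilityMeasure (packetMeasure (⊤ : Subring (𝓞 (K i))) (σ i))) ∧
          (∀ i, ∫ x, f x ∂(packetMeasure (⊤ : Subring (𝓞 (K i))) (σ i)) = 0) ∧
          ∀ m : Measure (XSpace n), IsProbabilityMeasure m →
            (∀ h, m.map (XSpace.rmul h) = m) →
            0 < ∫ x, f x ∂m ∧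
            ¬ Tendsto (fun i => ∫ x, f x ∂(packetMeasure (⊤ : Subring (𝓞 (K i))) (σ i)))
              atTop (𝓝 (∫ x, f x ∂m))) ∧
    (∃ (K : Type) (_ : Field K) (_ : NumberField K) (_ : IsTotallyReal K),
      Module.finrank ℚ K = n ∧ Nonempty (Fin n ≃ (K →+* ℝ)) ∧
      ∃ O : ℕ → Subring (𝓞 K), (∀ i, (O i).toAddSubgroup.index ≠ 0) ∧
        Tendsto (fun i => discOrder (O i)) atTop atTop ∧
        ∃ f : XSpace n → ℝ, Continuous f ∧ HasCompactSupport f ∧ (∀ x, 0 ≤ f x) ∧
          f (XSpace.mk 1) = 1 ∧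
          ∀ σ : ℕ → (Fin n ≃ (K →+* ℝ)),
            (∀ i, IsProbabilityMeasure (packetMeasure (O i) (σ i))) ∧
            (∀ i, ∫ x, f x ∂(packetMeasure (O i) (σ i)) = 0) ∧
            ∀ m : Measure (XSpace n), IsProbabilityMeasure m →
              (∀ h, m.map (XSpace.rmul h) = m) →
              0 < ∫ x, f x ∂m ∧
              ¬ Tendsto (fun i => ∫ x, f x ∂(packetMeasure (O i) (σ i))) atTop
                (𝓝 (∫ x, f x ∂m))) := by
  constructor
  · obtain ⟨K, iF, iN, iT, hdeg, hσ, hD, f, hf1, hf2, hf3, hone, hf⟩ :=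
      composite_maximal_final n hn
    exact ⟨K, iF, iN, iT, hdeg, hσ, hD, f, hf1, hf2, hf3, hone,
      fun σ => ⟨(hf σ).1, (hf σ).2.2.2.1, (hf σ).2.2.2.2⟩⟩
  · obtain ⟨K, iF, iN, iT, hdeg, hσ, O, hO1, hO2, f, hf1, hf2, hf3, hone, hf⟩ :=
      composite_final n hn
    exact ⟨K, iF, iN, iT, hdeg, hσ, O, hO1, hO2, f, hf1, hf2, hf3, hone,
      fun σ => ⟨(hf σ).1, (hf σ).2.2.2.1, (hf σ).2.2.2.2⟩⟩

end Vale.Agent.Results.P007.Disproof
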