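import Vale.Agent.Lib.P007.Compositum

namespace Vale.Agent.Results.P007.MaximalOrbits

open Vale.Agent.Lib.P007 NumberField Filter MeasureTheory Topology

/-- Every composite degree `n`, with maximal orders, without packet measures: totally real
fields `K_i` of degree `n` with `|Disc K_i|` tending to infinity and one nonnegative `f` in
`C_c(X_n)`, equal to one at the point of the lattice `Z^n` and of positive integral against
every invariant probability measure, such that for every `i` and every ordering `sigma` of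
the real embeddings of `K_i` the union of the orbits of the packet of the maximal order
`O_{K_i}` is not empty and `f` vanishes at each of its points. -/
theorem result (n : ℕ) (hn : ∃ a b : ℕ, 1 < a ∧ 1 < b ∧ n = a * b) :
    ∃ (K : ℕ → Type) (_ : ∀ i, Field (K i)) (_ : ∀ i, NumberField (K i))
      (_ : ∀ i, IsTotallyReal (K i)),
      (∀ i, Module.finrank ℚ (K i) = n) ∧ (∀ i, Nonempty (Fin n ≃ (K i →+* ℝ))) ∧
      Tendsto (fun i => (discr (K i)).natAbs) atTop atTop ∧
      ∃ f : XSpace n → ℝ, Continuous f ∧ HasCompactSupport f ∧ (∀ x, 0 ≤ f x) ∧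
        f (XSpace.mk 1) = 1 ∧
        (∀ m : Measure (XSpace n), IsProbabilityMeasure m →
          (∀ h, m.map (XSpace.rmul h) = m) → 0 < ∫ x, f x ∂m) ∧
        ∀ (i : ℕ) (σ : Fin n ≃ (K i →+* ℝ)),
          (packetSupport (⊤ : Subring (𝓞 (K i))) σ).Nonempty ∧
          ∀ x ∈ packetSupport (⊤ : Subring (𝓞 (K i))) σ, f x = 0 := by
  obtain ⟨K, iF, iN, iT, hdeg, hσ, hD, f, hf1, hf2, hf3, hone, hf⟩ :=
    composite_maximal_final n hn
  refine ⟨K, iF, iN, iT, hdeg, hσ, hD, f, hf1, hf2, hf3, hone, ?_, ?_⟩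
  · intro m hm hinv
    have σ0 : ∀ i, Fin n ≃ (K i →+* ℝ) := fun i => (hσ i).some
    exact ((hf σ0).2.2.2.2 m hm hinv).1
  · intro i σ
    have σ0 : ∀ i, Fin n ≃ (K i →+* ℝ) := fun i => (hσ i).some
    classical
    let σ1 : ∀ j, Fin n ≃ (K j →+* ℝ) := fun j => if h : j = i then h ▸ σ else σ0 j
    have h1 : σ1 i = σ := by simp [σ1]
    have h2 := (hf σ1).2.1 i
    have h3 := (hf σ1).2.2.1 i
    rw [h1] at h2 h3
    exact ⟨h2, h3⟩

end Vale.Agent.Results.P007.MaximalOrbits
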