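import Vale.Agent.Lib.P007.Compositum

namespace Vale.Agent.Results.P007.MaximalOrders

open Vale.Agent.Lib.P007 NumberField Filter MeasureTheory Topology

/-- Every composite degree `n`, with maximal orders: totally real fields `K_i` of degree `n`
with `|Disc K_i|` tending to infinity and one nonnegative `f` in `C_c(X_n)`, equal to one at
the point of the lattice `Z^n`, such that for any orderings `sigma_i` of the real embeddings
the packet measures `mu_i` of the maximal orders `O_{K_i}` are probability measures against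
which `f` has integral zero, while the integral of `f` against every invariant probability
measure `m` is positive; so the integrals against the `mu_i` do not converge to the integral
against `m`. -/
theorem result (n : ℕ) (hn : ∃ a b : ℕ, 1 < a ∧ 1 < b ∧ n = a * b) :
    ∃ (K : ℕ → Type) (_ : ∀ i, Field (K i)) (_ : ∀ i, NumberField (K i))
      (_ : ∀ i, IsTotallyReal (K i)),
      (∀ i, Module.finrank ℚ (K i) = n) ∧ (∀ i, Nonempty (Fin n ≃ (K i →+* ℝ))) ∧
      Tendsto (fun i => (discr (K i)).natAbs) atTop atTop ∧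
      ∃ f : XSpace n → ℝ, Continuous f ∧ HasCompactSupport f ∧ (∀ x, 0 ≤ f x) ∧
        f (XSpace.mk 1) = 1 ∧
        ∀ σ : ∀ i, Fin n ≃ (K i →+* ℝ),
          (∀ i, IsProbabilityMeasure (packetMeasure (⊤ : Subring (𝓞 (K i))) (σ i))) ∧
          (∀ i, ∫ x, f x ∂(packetMeasure (⊤ : Subring (𝓞 (K i))) (σ i)) = 0) ∧
          ∀ m : Measure (XSpace n), IsProbabilityMeasure m →
            (∀ h, m.map (XSpace.rmul h) = m) →
            0 < ∫ x, f x ∂m ∧
            ¬ Tendsto (fun i => ∫ x, f x ∂(packetMeasure (⊤ : Subring (𝓞 (K i))) (σ i)))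
              atTop (𝓝 (∫ x, f x ∂m)) := by
  obtain ⟨K, iF, iN, iT, hdeg, hσ, hD, f, hf1, hf2, hf3, hone, hf⟩ :=
    composite_maximal_final n hn
  exact ⟨K, iF, iN, iT, hdeg, hσ, hD, f, hf1, hf2, hf3, hone,
    fun σ => ⟨(hf σ).1, (hf σ).2.2.2.1, (hf σ).2.2.2.2⟩⟩

end Vale.Agent.Results.P007.MaximalOrders
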