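import Vale.Agent.Lib.P007.Bounded

namespace Vale.Agent.Results.P007.NecessaryCondition

open Vale.Agent.Lib.P007 NumberField Filter MeasureTheory Topology

/-- A necessary condition for the convergence in Q1, and its failure in composite degree.
(I) For every `n > 0` and every bound `B` there is a nonnegative `f` in `C_c(X_n)`, equal
to one at the point of the lattice `Z^n`, with positive integral against every invariant
probability measure, such that: for every totally real field `K` of degree `n`, every order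
`O` (of finite index in `O_K`) containing an integer `beta` that is not a rational integer
and all of whose real conjugates have absolute value at most `B`, and every ordering
`sigma`, the packet measure of `(O, sigma)` is a probability measure against which `f` has
integral zero. Hence, along any sequence `(K_i, O_i, sigma_i)` for which such `beta_i`
exist for infinitely many `i`, the integrals of `f` against the packet measures do not
converge to the integral of `f` against any invariant probability measure.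
(II) For composite `n` the hypothesis of (I) is met, for one `B`, by the maximal orders of
totally real fields `K_i` of degree `n` whose discriminants tend to infinity. -/
theorem result (n : ℕ) (hn : 0 < n) :
    (∀ B : ℝ, ∃ f : XSpace n → ℝ, Continuous f ∧ HasCompactSupport f ∧ (∀ x, 0 ≤ f x) ∧
      f (XSpace.mk 1) = 1 ∧
      (∀ m : Measure (XSpace n), IsProbabilityMeasure m →
        (∀ h, m.map (XSpace.rmul h) = m) → 0 < ∫ x, f x ∂m) ∧
      (∀ (K : Type) [Field K] [NumberField K] [IsTotallyReal K] (O : Subring (𝓞 K))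
        (σ : Fin n ≃ (K →+* ℝ)), O.toAddSubgroup.index ≠ 0 →
        (∃ β ∈ O, (∀ k : ℤ, (β : K) ≠ (k : K)) ∧ ∀ φ : K →+* ℝ, |φ (β : K)| ≤ B) →
        IsProbabilityMeasure (packetMeasure O σ) ∧ ∫ x, f x ∂(packetMeasure O σ) = 0) ∧
      ∀ (K : ℕ → Type) [∀ i, Field (K i)] [∀ i, NumberField (K i)]
        [∀ i, IsTotallyReal (K i)] (O : ∀ i, Subring (𝓞 (K i)))
        (σ : ∀ i, Fin n ≃ (K i →+* ℝ)), (∀ i, (O i).toAddSubgroup.index ≠ 0) →
        (∃ᶠ i in atTop, ∃ β ∈ O i, (∀ k : ℤ, (β : K i) ≠ (k : K i)) ∧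
          ∀ φ : K i →+* ℝ, |φ (β : K i)| ≤ B) →
        ∀ m : Measure (XSpace n), IsProbabilityMeasure m →
          (∀ h, m.map (XSpace.rmul h) = m) →
          ¬ Tendsto (fun i => ∫ x, f x ∂(packetMeasure (O i) (σ i))) atTop
            (𝓝 (∫ x, f x ∂m))) ∧
    ((∃ a b : ℕ, 1 < a ∧ 1 < b ∧ n = a * b) →
      ∃ (B : ℝ) (K : ℕ → Type) (_ : ∀ i, Field (K i)) (_ : ∀ i, NumberField (K i))
        (_ : ∀ i, IsTotallyReal (K i)),
        (∀ i, Module.finrank ℚ (K i) = n) ∧ (∀ i, Nonempty (Fin n ≃ (K i →+* ℝ))) ∧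
        Tendsto (fun i => (discr (K i)).natAbs) atTop atTop ∧
        ∀ i, ∃ β : 𝓞 (K i), (∀ k : ℤ, (β : K i) ≠ (k : K i)) ∧
          ∀ φ : K i →+* ℝ, |φ (β : K i)| ≤ B) := by
  refine ⟨fun B => ?_, fun hcomp => ?_⟩
  · obtain ⟨f, hf1, hf2, hf3, hone, hf4, hf5⟩ := obstruction_bounded_one n hn B
    have key : ∀ (K : Type) [Field K] [NumberField K] [IsTotallyReal K] (O : Subring (𝓞 K))
        (σ : Fin n ≃ (K →+* ℝ)), O.toAddSubgroup.index ≠ 0 →
        (∃ β ∈ O, (∀ k : ℤ, (β : K) ≠ (k : K)) ∧ ∀ φ : K →+* ℝ, |φ (β : K)| ≤ B) →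
        IsProbabilityMeasure (packetMeasure O σ) ∧ ∫ x, f x ∂(packetMeasure O σ) = 0 := by
      intro K _ _ _ O σ hO ⟨β, hβO, hnr, hbd⟩
      exact ⟨isProbabilityMeasure_packetMeasure O hO σ,
        integral_packetMeasure_eq_zero O σ hf1 (hf5 K σ O β hβO hnr hbd)⟩
    refine ⟨f, hf1, hf2, hf3, hone, hf4, key, ?_⟩
    intro K _ _ _ O σ hO hfreq m hm hinv hT
    have hpos := hf4 m hm hinv
    have hev : ∀ᶠ i in atTop, 0 < ∫ x, f x ∂(packetMeasure (O i) (σ i)) :=
      hT.eventually (lt_mem_nhds hpos)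
    obtain ⟨i, hi, hi'⟩ := (hfreq.and_eventually hev).exists
    rw [(key (K i) (O i) (σ i) (hO i) hi).2] at hi'
    exact lt_irrefl _ hi'
  · obtain ⟨P, hP, hroot, K, iF, iN, iT, hdeg, hσ, hD, hβ⟩ :=
      composite_fields_common_root n hcomp
    obtain ⟨B, hB⟩ := root_bounded P hP hroot
    refine ⟨B, K, iF, iN, iT, hdeg, hσ, hD, fun i => ?_⟩
    obtain ⟨β, hβP⟩ := hβ i
    exact ⟨β, hB (K i) β hβP⟩

end Vale.Agent.Results.P007.NecessaryCondition
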